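import Vale.Agent.P004.All2

/-!
# P004: unconditional bounds for the analytic ranks of the quadratic twists of `y² = x³ - x`
-/

namespace Vale.Agent.Results.P004.RankTail

open _root_.P004

/-- **Analytic ranks of the quadratic twists `E^(D) : D y² = x³ - x`, `D ≠ 1` a fundamental
discriminant.**

1. The Hasse-Weil `L`-function of `E^(D)` (Euler product for `Re s > 3/2`) has a unique entire
   continuation `LTwist D`; its order of vanishing at `s = 1` is the natural number `aRank D`.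
2. `#{D : |D| ≤ X, aRank D ≥ z} ≤ C X (log X)^A exp(- c z² / log X)` for all `z ≥ 0`.
3. The mean of `aRank D` over `|D| ≤ X` is `≪ √(log X loglog X)`, and the `k`-th moment is `≪`
   the `k`-th power of this. -/
theorem result :
    (∀ D : ℤ, IsFund D → IsLFunction D (LTwist D) ∧ (∀ L, IsLFunction D L → L = LTwist D) ∧
      analyticOrderAt (LTwist D) 1 = (aRank D : ℕ∞)) ∧
    (∃ C c : ℝ, 0 < C ∧ 0 < c ∧ ∃ A : ℕ, ∀ X : ℕ, 3 ≤ X → ∀ z : ℝ, 0 ≤ z →
      (((Fam X).filter (fun D => z ≤ (aRank D : ℝ))).card : ℝ) ≤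
        C * X * Real.log X ^ A * Real.exp (-c * z ^ 2 / Real.log X)) ∧
    (∀ k : ℕ, ∃ C : ℝ, 0 < C ∧ ∀ X : ℕ, 3 ≤ X →
      ∑ D ∈ Fam X, (aRank D : ℝ) ^ k ≤
        C * ((Fam X).card : ℝ) * (√(Real.log X * Real.log (Real.log X + 2))) ^ k) :=
  final2

end Vale.Agent.Results.P004.RankTail
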